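import Vale.Agent.P159.T1.D.H802.Dict2
import Vale.Agent.P159.T1.H598.R1b

/-!
The four replica inequality in the slit box, and the iterated form.
-/

open Filter Topology

namespace Vale.Agent.P159.T1.D.H598

open Vale.Agent.P159.H353 Vale.Agent.P159.T1.D Vale.Agent.P159.T1.H934
open Vale.Agent.P159.T1.D.H802 Vale.Agent.P159.T1.H598

lemma Zt_swap {V E : Type} [Fintype V] [Fintype E] (s t : E → V) (J : E → ℝ) (xl xr : V)
    (ρ : V → ℝ) (p q : ℤ) : Zt s t J xl xr ρ p q = Zt s t J xr xl ρ q p := by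
  classical
  unfold Zt
  refine tsum_congr fun h => ?_
  exact if_congr and_comm rfl rfl

lemma cg_add' (U : Finset Z2) (ρ σ : Z2 → ℝ) : cg U (ρ + σ) = cg U ρ + cg U σ := by
  funext v
  rcases v with f | b
  · rfl
  · show (0 : ℝ) = 0 + 0
    rw [add_zero]

lemma cg_sub' (U : Finset Z2) (ρ σ : Z2 → ℝ) : cg U (ρ - σ) = cg U ρ - cg U σ := by
  funext v
  rcases v with f | b
  · rfl
  · show (0 : ℝ) = 0 - 0
    rw [sub_zero]

section box

variable {R r : ℕ} (hR : 1 ≤ R) (hr : 1 ≤ r)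

include hR hr in
/-- **Four replica inequality** in the slit box, all sectors `(k|0)`. -/
theorem four_SB {b : ℝ} (hb : 0 ≤ b) (ρ σ : Z2 → ℝ) (k l : ℤ) :
    (Zs b (SB R r) k ρ * Zs b (SB R r) l σ) ^ 2 ≤
      Zs b (SB R r) (k + l) (ρ + σ) * Zs b (SB R r) (k - l) (ρ - σ) * Z b (SB R r) ^ 2 := by
  have h := four_Zt (s := sv (SB R r)) (t := tv (SB R r)) (conn_SB hR hr) (J := fun _ => b)
    (fun _ => hb) (op (SB R r)) (om (SB R r)) (cg (SB R r) ρ) (cg (SB R r) σ) k l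
  rw [Zs_eq, Zs_eq, Zs_eq, Zs_eq, Z_eq, Zt_swap, Zt_swap _ _ _ (om _) (op _) (cg _ σ),
    Zt_swap _ _ _ (om _) (op _) (cg _ (ρ + σ)), Zt_swap _ _ _ (om _) (op _) (cg _ (ρ - σ)),
    Zt_swap _ _ _ (om _) (op _) 0, cg_add', cg_sub']
  exact h

include hR hr in
lemma Zs_pos {b : ℝ} (hb : 0 < b) (k : ℤ) (ρ : Z2 → ℝ) : 0 < Zs b (SB R r) k ρ := by
  rw [Zs_eq, Zt_swap]
  exact Zt_pos (conn_SB hR hr) (fun _ => hb) (om_ne_op (U := SB R r)).symm _ _

include hR hr in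
lemma Z_pos {b : ℝ} (hb : 0 < b) : 0 < Z b (SB R r) := by
  rw [Z_eq, Zt_swap]
  exact Zt_pos (conn_SB hR hr) (fun _ => hb) (om_ne_op (U := SB R r)).symm _ _

/-- logarithm of the normalized partition function of the sector `(k|0)` -/
noncomputable def lS (b : ℝ) (U : Finset Z2) (k : ℤ) (ρ : Z2 → ℝ) : ℝ :=
  Real.log (Zs b U k ρ / Z b U)

lemma Zs_zero_sec (b : ℝ) (U : Finset Z2) (ρ : Z2 → ℝ) : Zs b U 0 ρ = Zρ b U ρ := by
  unfold Zρ Zs
  rw [sec_zero]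

include hR hr in
/-- logarithmic form -/
theorem lS_four {b : ℝ} (hb : 0 < b) (ρ σ : Z2 → ℝ) (k l : ℤ) :
    2 * lS b (SB R r) k ρ + 2 * lS b (SB R r) l σ ≤
      lS b (SB R r) (k + l) (ρ + σ) + lS b (SB R r) (k - l) (ρ - σ) := by
  have p : ∀ k' σ', 0 < Zs b (SB R r) k' σ' := fun k' σ' => Zs_pos hR hr hb k' σ'
  have pz := Z_pos hR hr hb
  have h := four_SB hR hr hb.le ρ σ k l
  have h1 := Real.log_le_log (by have := p k ρ; have := p l σ; positivity) h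
  have a1 := (p k ρ).ne'
  have a2 := (p l σ).ne'
  have a3 := (p (k + l) (ρ + σ)).ne'
  have a4 := (p (k - l) (ρ - σ)).ne'
  have a5 := pz.ne'
  rw [Real.log_pow, Real.log_mul a1 a2, Real.log_mul (mul_ne_zero a3 a4) (pow_ne_zero _ a5),
    Real.log_mul a3 a4, Real.log_pow] at h1
  unfold lS
  rw [Real.log_div a1 a5, Real.log_div a2 a5, Real.log_div a3 a5, Real.log_div a4 a5]
  push_cast at h1
  linarith

include hR hr in
/-- **One use of the four replica inequality**: the sector `(k|0)` without charges from the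
sector with charges `ρ` (sharp stage, plan 118 (4)). -/
theorem lS_close {b : ℝ} (hb : 0 < b) (ρ : Z2 → ℝ) (k : ℤ) :
    2 * lS b (SB R r) k ρ + 2 * lS b (SB R r) 0 ρ - lS b (SB R r) k ((2 : ℝ) • ρ) ≤
      lS b (SB R r) k 0 := by
  have h := lS_four hR hr hb ρ ρ k 0
  rw [add_zero, sub_zero, sub_self, ← two_smul ℝ ρ] at h
  linarith

include hR hr in
/-- the iterated form -/
theorem lS_chain {b : ℝ} (hb : 0 < b) (ρ : Z2 → ℝ) (q : ℤ) (k : ℕ) :
    lS b (SB R r) q ρ ≤ (1 / 2) ^ k * lS b (SB R r) q ((2 : ℝ) ^ k • ρ) +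
      (1 - (1 / 2) ^ k) * lS b (SB R r) q 0 -
      ∑ j ∈ Finset.range k, (1 / 2) ^ j * lS b (SB R r) 0 ((2 : ℝ) ^ j • ρ) := by
  have h2 := chain (r := lS b (SB R r) q 0) (x := fun j => lS b (SB R r) q ((2 : ℝ) ^ j • ρ))
    (m := fun j => lS b (SB R r) 0 ((2 : ℝ) ^ j • ρ)) (fun j => by
      have h6 := lS_four hR hr hb ((2 : ℝ) ^ j • ρ) ((2 : ℝ) ^ j • ρ) q 0
      rw [add_zero, sub_zero, sub_self, ← add_smul] at h6
      have h7 : ((2 : ℝ) ^ j + 2 ^ j : ℝ) = 2 ^ (j + 1) := by ring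
      rw [h7] at h6
      show 2 * (lS b (SB R r) q ((2 : ℝ) ^ j • ρ) + lS b (SB R r) 0 ((2 : ℝ) ^ j • ρ)) ≤
        lS b (SB R r) q ((2 : ℝ) ^ (j + 1) • ρ) + lS b (SB R r) q 0
      linarith) k
  simp only [pow_zero, one_smul] at h2
  exact h2

include hR hr in
/-- **The final bound of the exploration, the deficit counts twice.** If
`Z Zρ(ρ) P ≤ Zs 1 0 Zs 1 ρ` (exploration) and the Gaussian bounds hold for the charges `2 ^ j ρ`,
then the two point function is at least the square root of `P` times the Gaussian value. -/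
theorem twice {b : ℝ} (hb : 0 < b) {ρ : Z2 → ℝ} {P : ℝ} (hP : 0 < P)
    (hmain : Z b (SB R r) * Zρ b (SB R r) ρ * P ≤ Zs b (SB R r) 1 0 * Zs b (SB R r) 1 ρ)
    {k : ℕ} {A X κ δ : ℝ} (h0 : 0 ≤ δ)
    (hV : ∀ j ≤ k, 4 ^ j * A - δ ≤ lS b (SB R r) 0 ((2 : ℝ) ^ j • ρ))
    (hU : lS b (SB R r) 1 ((2 : ℝ) ^ k • ρ) ≤ 4 ^ k * A + 2 ^ k * X - κ + δ) :
    Real.log P - X + (1 / 2) ^ k * κ - 3 * δ ≤ (2 - (1 / 2) ^ k) * lS b (SB R r) 1 0 := by
  have pz := Z_pos hR hr hb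
  have p : ∀ k' σ', 0 < Zs b (SB R r) k' σ' := fun k' σ' => Zs_pos hR hr hb k' σ'
  have h1 := lS_chain hR hr hb ρ 1 k
  have hmain' : Real.log P + lS b (SB R r) 0 ρ ≤ lS b (SB R r) 1 0 + lS b (SB R r) 1 ρ := by
    rw [← Zs_zero_sec] at hmain
    have h2 := Real.log_le_log (by have := p 0 ρ; positivity) hmain
    rw [Real.log_mul (mul_ne_zero pz.ne' (p 0 ρ).ne') hP.ne', Real.log_mul pz.ne' (p 0 ρ).ne',
      Real.log_mul (p 1 0).ne' (p 1 ρ).ne'] at h2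
    unfold lS
    rw [Real.log_div (p 0 ρ).ne' pz.ne', Real.log_div (p 1 0).ne' pz.ne',
      Real.log_div (p 1 ρ).ne' pz.ne']
    linarith
  have h2 := hV 0 (Nat.zero_le _)
  simp only [pow_zero, one_smul, one_mul] at h2
  have h3 : ∑ j ∈ Finset.range k, ((1 : ℝ) / 2) ^ j * (4 ^ j * A - δ) ≤
      ∑ j ∈ Finset.range k, ((1 : ℝ) / 2) ^ j * lS b (SB R r) 0 ((2 : ℝ) ^ j • ρ) :=
    Finset.sum_le_sum fun j hj => mul_le_mul_of_nonneg_left
      (hV j (Finset.mem_range.1 hj).le) (by positivity)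
  have h4 : ∑ j ∈ Finset.range k, ((1 : ℝ) / 2) ^ j * (4 ^ j * A - δ) =
      (2 ^ k - 1) * A - 2 * (1 - (1 / 2) ^ k) * δ := by
    rw [← sum_two, ← sum_half, Finset.sum_mul, Finset.sum_mul, ← Finset.sum_sub_distrib]
    exact Finset.sum_congr rfl fun j _ => by ring
  rw [h4] at h3
  have h5 := mul_le_mul_of_nonneg_left hU (by positivity : (0 : ℝ) ≤ (1 / 2) ^ k)
  have h6 : ((1 : ℝ) / 2) ^ k * (4 ^ k * A + 2 ^ k * X - κ + δ) =
      2 ^ k * A + X - (1 / 2) ^ k * κ + (1 / 2) ^ k * δ := by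
    have e1 : ((1 : ℝ) / 2) ^ k * 4 ^ k = 2 ^ k := by rw [← mul_pow]; norm_num
    have e2 : ((1 : ℝ) / 2) ^ k * 2 ^ k = 1 := by rw [← mul_pow]; norm_num
    linear_combination A * e1 + X * e2
  rw [h6] at h5
  have h8 : 0 ≤ (1 / 2 : ℝ) ^ k * δ := by positivity
  linarith

end box

/-! ### scaling of the charges -/

lemma ro_smul (Y V : ℝ) (q : ℕ) (Γ : ℝ → ℝ) (c : ℝ) (f : Z2) :
    ro Y (c * V) q Γ f = c * ro Y V q Γ f := by
  classical
  unfold ro Bf cf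
  split_ifs <;> ring

/-- all charges of the slit box scale -/
lemma rho_smul (Y V : ℝ) (q n0 r : ℕ) (κ x y s c : ℝ) :
    rho Y (c * V) q n0 r (c * κ) x y s = c • rho Y V q n0 r κ x y s := by
  funext f
  unfold rho bump
  rw [ro_smul, ro_smul, Pi.smul_apply, smul_eq_mul]
  ring

end Vale.Agent.P159.T1.D.H598
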