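import Vale.Agent.P159.T1.D.H172.Axis
import Vale.Agent.P159.T1.D.H598.Four

/-!
**The direct route with the four replica inequality**: the rows of plan 115 give on the axis the
exponent `1 / √(8 π Υ(b))`, which is at most `1 / 4`.
-/

open Filter Topology

namespace Vale.Agent.P159.T1.D.H598

open Vale.Agent.P159 Vale.Agent.P159.H353 Vale.Agent.P159.T1.D Vale.Agent.P159.T1.D.H172

lemma En_mul (V : ℝ) (q : ℕ) (c : ℝ) : En (c * V) q = c ^ 2 * En V q := by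
  unfold En
  ring

/-- the choice of `V` and `q` -/
lemma choice2 {Y ε : ℝ} (hY : 0 < Y) (hε : 0 < ε) :
    ∃ V : ℝ, 0 < V ∧ 1 < 2 * V ^ 2 / (Real.pi * Y) ∧
      ∀ᶠ q : ℕ in atTop,
        V / (Y * (2 * Real.pi - ang q)) ≤ 1 / Real.sqrt (8 * Real.pi * Y) + ε / 4 := by
  have hpi := Real.pi_pos
  set v := Real.sqrt (Real.pi * Y / 2) with hv
  have hsq : 0 < v := Real.sqrt_pos.2 (by positivity)
  have hs2 : v ^ 2 = Real.pi * Y / 2 := Real.sq_sqrt (by positivity)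
  have h8 : Real.sqrt (8 * Real.pi * Y) = 4 * v := by
    rw [show 8 * Real.pi * Y = (4 * v) ^ 2 by rw [mul_pow, hs2]; ring]
    exact Real.sqrt_sq (by positivity)
  have hd : 0 < Real.pi * Y * ε / 4 := by positivity
  refine ⟨v + Real.pi * Y * ε / 4, by positivity, ?_, ?_⟩
  · rw [lt_div_iff₀ (by positivity)]
    nlinarith [mul_pos hsq hd, sq_nonneg (Real.pi * Y * ε / 4)]
  · have h1 : (v + Real.pi * Y * ε / 4) / (Y * (2 * Real.pi)) = 1 / (4 * v) + ε / 8 := by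
      have h3 : Y * (2 * Real.pi) = 4 * v ^ 2 := by rw [hs2]; ring
      have h4 : Real.pi * Y * ε / 4 = 4 * v ^ 2 * (ε / 8) := by rw [hs2]; ring
      rw [h3, h4]
      field_simp
    have h2 : Tendsto (fun q : ℕ => (v + Real.pi * Y * ε / 4) / (Y * (2 * Real.pi - ang q)))
        atTop (𝓝 ((v + Real.pi * Y * ε / 4) / (Y * (2 * Real.pi - 0)))) := by
      refine Tendsto.div tendsto_const_nhds
        ((tendsto_const_nhds.sub ang_tendsto).const_mul Y) ?_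
      rw [sub_zero]
      positivity
    rw [sub_zero, h1] at h2
    rw [h8]
    filter_upwards [h2.eventually (ge_mem_nhds
      (by linarith : 1 / (4 * v) + ε / 8 < 1 / (4 * v) + ε / 4))] with q hq
    exact hq

/-- D.LOW for the charges `2 ^ j ρ`, `j ≤ k` -/
lemma unif_low (hLow : StmtLow) {b V : ℝ} {q : ℕ} {x y s ε : ℝ} (hb : bCrit ≤ b) (hV : 0 < V)
    (hq : 1 ≤ q) (hε : 0 < ε) (hs : 0 < s) (h1 : s < y) (h2 : s + x < 1 / 4)
    (h3 : (q : ℝ) * (y + s) < x - s) (k : ℕ) :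
    ∃ n1 : ℕ, ∀ n0 ≥ n1, ∃ C : ℝ, 0 ≤ C ∧ ∀ j ≤ k, ∀ (A r : ℕ), 1 ≤ A → n1 ≤ r →
      Real.exp (4 ^ j * (2 * Real.log r / helicity b * En V q) - (ε * Real.log r + C)) *
          Z b (SB (A * r) r) ≤
        Zρ b (SB (A * r) r) ((2 : ℝ) ^ j • rho (helicity b) V q n0 r 1 x y s) := by
  have hj : ∀ j : ℕ, ∃ n1 : ℕ, ∀ n0 ≥ n1, ∃ C : ℝ, ∀ (A r : ℕ), 1 ≤ A → n1 ≤ r →
      Real.exp (4 ^ j * (2 * Real.log r / helicity b * En V q) - (ε * Real.log r + C)) *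
          Z b (SB (A * r) r) ≤
        Zρ b (SB (A * r) r) ((2 : ℝ) ^ j • rho (helicity b) V q n0 r 1 x y s) := by
    intro j
    obtain ⟨n1, h⟩ := hLow b ((2 : ℝ) ^ j * V) q ((2 : ℝ) ^ j * 1) x y s ε hb (by positivity) hq
      hε (by positivity) hs h1 h2 h3
    refine ⟨n1, fun n0 hn0 => ?_⟩
    obtain ⟨C, hC⟩ := h n0 hn0
    refine ⟨C, fun A r hA hr => ?_⟩
    have h4 := hC A r hA hr
    rw [rho_smul, En_mul] at h4
    refine le_trans (le_of_eq ?_) h4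
    have e : ((2 : ℝ) ^ j) ^ 2 = 4 ^ j := by
      rw [← pow_mul, mul_comm, pow_mul]
      norm_num
    rw [e]
    congr 2
    ring
  induction k with
  | zero =>
    obtain ⟨n1, h⟩ := hj 0
    refine ⟨n1, fun n0 hn0 => ?_⟩
    obtain ⟨C, hC⟩ := h n0 hn0
    refine ⟨max C 0, le_max_right _ _, fun j hj0 A r hA hr => ?_⟩
    have e : j = 0 := by omega
    subst e
    refine le_trans ?_ (hC A r hA hr)
    refine mul_le_mul_of_nonneg_right ?_ (H910.Z_pos (H170.bCrit_pos.trans_le hb).le _).le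
    apply Real.exp_le_exp.2
    have := le_max_left C 0
    linarith
  | succ k ih =>
    obtain ⟨n1, h⟩ := ih
    obtain ⟨n2, h'⟩ := hj (k + 1)
    refine ⟨max n1 n2, fun n0 hn0 => ?_⟩
    obtain ⟨C, hC0, hC⟩ := h n0 ((le_max_left _ _).trans hn0)
    obtain ⟨C', hC'⟩ := h' n0 ((le_max_right _ _).trans hn0)
    refine ⟨max C C', hC0.trans (le_max_left _ _), fun j hj0 A r hA hr => ?_⟩
    have m1 := le_max_left C C'
    have m2 := le_max_right C C'
    by_cases hjk : j ≤ k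
    · refine le_trans ?_ (hC j hjk A r hA ((le_max_left _ _).trans hr))
      refine mul_le_mul_of_nonneg_right ?_ (H910.Z_pos (H170.bCrit_pos.trans_le hb).le _).le
      apply Real.exp_le_exp.2
      linarith
    · have e : j = k + 1 := by omega
      subst e
      refine le_trans ?_ (hC' A r hA ((le_max_right _ _).trans hr))
      refine mul_le_mul_of_nonneg_right ?_ (H910.Z_pos (H170.bCrit_pos.trans_le hb).le _).le
      apply Real.exp_le_exp.2
      linarith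

/-- from bounds of partition functions to bounds of logarithms -/
lemma lS_ge {b : ℝ} (hb : 0 < b) {R r : ℕ} {ρ : Z2 → ℝ} {a : ℝ}
    (h : Real.exp a * Z b (SB R r) ≤ Zρ b (SB R r) ρ) : a ≤ lS b (SB R r) 0 ρ := by
  have hz := H910.Z_pos hb.le (SB R r)
  unfold lS
  rw [Zs_zero_sec, Real.le_log_iff_exp_le (div_pos ((mul_pos (Real.exp_pos a) hz).trans_le h) hz),
    le_div_iff₀ hz]
  exact h

lemma lS_le {b : ℝ} (hb : 0 < b) {R r : ℕ} (hR : 1 ≤ R) (hr : 1 ≤ r) {ρ : Z2 → ℝ} {k : ℤ} {a : ℝ}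
    (h : Zs b (SB R r) k ρ ≤ Real.exp a * Z b (SB R r)) : lS b (SB R r) k ρ ≤ a := by
  have hz := H910.Z_pos hb.le (SB R r)
  have hp := Zs_pos hR hr hb k ρ
  unfold lS
  rw [Real.log_le_iff_le_exp (div_pos hp hz), div_le_iff₀ hz]
  exact h

/-- division by `2 - y` -/
lemma half_step {S y l : ℝ} (hS : 0 ≤ S) (h0 : 0 ≤ y) (h1 : y ≤ 1) (h : -S ≤ (2 - y) * l) :
    -(S * (1 + y) / 2) ≤ l := by
  by_cases hl : 0 ≤ l
  · have : 0 ≤ S * (1 + y) / 2 := by positivity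
    linarith
  · have h2 : (1 + y) / 2 * -S ≤ (1 + y) / 2 * ((2 - y) * l) :=
      mul_le_mul_of_nonneg_left h (by positivity)
    have h3 : 0 ≤ y * (1 - y) * (-l) :=
      mul_nonneg (mul_nonneg h0 (by linarith)) (by linarith [not_le.1 hl])
    nlinarith

/-- the numbers at the end -/
lemma num_end {κ ε L D CL lp x0 Kt kp y l : ℝ} (hL : 0 ≤ L) (hε : 0 < ε) (hκ : 0 ≤ κ)
    (hD : D = 3 * CL - lp) (hD0 : 0 ≤ D) (hX : x0 * L ≤ (κ + ε / 4) * L) (hKt : Kt ≤ ε / 8 * L)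
    (hkp : 0 ≤ kp) (hy0 : 0 ≤ y) (hy1 : y ≤ 1) (hy : y * (κ + ε) ≤ ε / 2)
    (key : lp - Kt - 2 * L * x0 + kp - 3 * (ε / 24 * L + CL) ≤ (2 - y) * l) :
    -(D + (κ + ε) * L) ≤ l := by
  have h3 : -((2 * κ + 3 * ε / 4) * L + D) ≤ (2 - y) * l := by
    refine le_trans ?_ key
    rw [hD]
    linarith
  have h4 := half_step (by positivity) hy0 hy1 h3
  refine le_trans ?_ h4
  have h6 : D * (1 + y) / 2 ≤ D := by nlinarith
  have h7 : (2 * κ + 3 * ε / 4) * (1 + y) / 2 ≤ κ + ε := by nlinarith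
  have h8 : (2 * κ + 3 * ε / 4) * (1 + y) / 2 * L ≤ (κ + ε) * L :=
    mul_le_mul_of_nonneg_right h7 hL
  linarith

/-- the bound at one distance `r` -/
theorem at_r2 (hTop : StmtTop) (hMain : StmtMain) (hCover : StmtCover) (hSep : StmtSep)
    (hSepM : StmtSepM) (hPos : StmtPos) {b ε V κ c s t θ p CU CL : ℝ} {q n0 A r k : ℕ}
    (hb : 0 < b) (hε : 0 < ε) (hY : 0 < helicity b) (hV : 0 < V) (hq : 1 ≤ q) (hκ : 0 ≤ κ)
    (hqX : V / (helicity b * (2 * Real.pi - ang q)) ≤ κ + ε / 4)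
    (hk : (1 / 2) ^ k * (κ + ε) ≤ ε / 2)
    (hc : 0 < c) (hc12 : c ≤ 1 / 12) (ht0 : 0 ≤ t) (ht : t ≤ 1 / 2) (htq : t * q ≤ ε / 96)
    (hs0 : 0 < s) (hsc : s ≤ c / 32) (hqs : q * s = c / 32) (hθ : θ < 1) (hp0 : 0 < p)
    (hp1 : p ≤ 1)
    (hp : ∀ (U : Finset Z2) (f : Z2), f ∈ U → p ≤ E b U fun h => if 1 ≤ h f then 1 else 0)
    (hqn : q < 3 * n0) (hA : 1 ≤ A) (hr : 1 ≤ r) (hnr : 2 * (3 * n0) ≤ r)
    (hnc : ((3 * n0 : ℕ) : ℝ) ≤ c * r) (hsr : 1 ≤ s * r) (hCL : 0 ≤ CL) (hCUL : CU ≤ CL)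
    (hθ0 : 0 ≤ θ)
    (hU : Zs b (SB (A * r) r) 1 ((2 : ℝ) ^ k • rho (helicity b) V q n0 r 1 (c / 4) (2 * s) s) ≤
        Real.exp (4 ^ k * (2 * Real.log r / helicity b * En V q) +
          2 ^ k * (2 * Real.log r * (V / (helicity b * (2 * Real.pi - ang q)))) -
          2 * Real.log r / helicity b * (1 / (4 * Real.pi)) + (ε / 24 * Real.log r + CU)) *
          Z b (SB (A * r) r))
    (hL : ∀ j ≤ k, Real.exp (4 ^ j * (2 * Real.log r / helicity b * En V q) -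
          (ε / 24 * Real.log r + CL)) * Z b (SB (A * r) r) ≤
        Zρ b (SB (A * r) r) ((2 : ℝ) ^ j • rho (helicity b) V q n0 r 1 (c / 4) (2 * s) s))
    (hArm : ∀ a : ℕ, 3 * n0 ≤ a → (a : ℝ) ≤ c * r →
      ∃ ρA ρB : Z2 → ℝ, (∀ f, 0 ≤ ρA f ∧ 0 ≤ ρB f ∧
          ρA f + ρB f ≤ ro (helicity b) V q (clp n0 ((r : ℝ) / 4)) f) ∧
        (∀ f, f ∉ strip q 1 a → ρA f = 0) ∧
        (∀ f, f ∉ strip q (a + a / q) (2 * a) → ρB f = 0) ∧
        ∀ Q : Finset Z2, (∀ f, f ∈ Q ↔ f ∈ strip q a (a + a / q)) →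
        Zρ b (SB (A * r) r \ Q) (fun f => ρA f - ρB f) ≤
          t * Zρ b (SB (A * r) r \ Q) (fun f => ρA f + ρB f))
    (hMid : ∀ Q : Finset Z2, (∀ f ∈ Q, c / 2 * (r : ℝ) ≤ -(f.1 : ℝ)) →
      Zρ b (SB (A * r) r \ Q)
          (fun f => bump r 1 (c / 4) (2 * s) s f - bump r 1 (c / 4) (2 * s) s (mir r f)) ≤
        θ * Zρ b (SB (A * r) r \ Q)
          (fun f => bump r 1 (c / 4) (2 * s) s f + bump r 1 (c / 4) (2 * s) s (mir r f))) :
    Real.exp (-(3 * CL - Real.log ((1 - θ) ^ 3 * p ^ (2 * (2 * (3 * n0)) ^ 2)))) *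
      (r : ℝ) ^ (-(κ + ε)) ≤ corrInf b ((r : ℤ), 0) := by
  have hpi := Real.pi_pos
  have hrR : (0 : ℝ) < r := by exact_mod_cast hr
  have hrR1 : (1 : ℝ) ≤ r := by exact_mod_cast hr
  have hqR1 : (1 : ℝ) ≤ q := by exact_mod_cast hq
  have hAr : r ≤ A * r := Nat.le_mul_of_pos_left r hA
  have hlog : 0 ≤ Real.log r := Real.log_nonneg hrR1
  have hcr : c * r ≤ r := mul_le_of_le_one_left hrR.le (by linarith)
  have hcr2 : 2 * (c * r) ≤ r := by nlinarith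
  have hsr2 : s * r ≤ c / 32 * r := mul_le_mul_of_nonneg_right hsc hrR.le
  have hcr0 : 0 < c * r := mul_pos hc hrR
  -- the cells
  obtain ⟨K, hK1, hK2⟩ := exists_last hq hqn.le hnc
  have hK3 := hK1 K (le_refl K)
  have hMR : 2 * cell q (3 * n0) K ≤ A * r := by
    have h1 : (2 * cell q (3 * n0) K : ℝ) ≤ r := by linarith
    have h2 : 2 * cell q (3 * n0) K ≤ r := by exact_mod_cast h1
    exact h2.trans hAr
  have hcount : (K : ℝ) ≤ 3 * q * Real.log r := by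
    have h1 := cell_count hq hqn.le (hK3.trans hcr)
    have h2 : (2 * (q : ℝ) + 1) * Real.log r ≤ 3 * q * Real.log r :=
      mul_le_mul_of_nonneg_right (by linarith) hlog
    exact h1.trans h2
  have hbump : ∀ f, f ∉ strip q 1 (cell q (3 * n0) K) →
      bump r 1 (c / 4) (2 * s) s f = 0 := by
    intro f hf
    refine bump_support hr hs0 ?_ (by linarith) ?_ ?_ hf
    · calc (q : ℝ) * (2 * s + s) = 3 * (q * s) := by ring
        _ < c / 4 - s := by
          rw [hqs]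
          linarith
    · linarith
    · calc (c / 4 + s) * (r : ℝ) = c * r / 4 + s * r := by ring
        _ ≤ cell q (3 * n0) K := by linarith
  have hmain := all_rows hMain hCover hSep hSepM hPos (x' := c / 2) (θ := θ) hb hY hV hq
    zero_le_one (by omega) hr hqn hMR hnr (by linarith) hθ.le
    (fun f hf => hp0.le.trans (hp _ _ (mem_tips.1 hf).1))
    (fun k hk => hArm (cell q (3 * n0) k) (cell_ge q _ k) (hK1 k hk.le)) hbump
    (by linarith) hMid
  have hθ3 : 0 < (1 - θ) ^ 3 := pow_pos (by linarith) 3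
  set N := 2 * (2 * (3 * n0)) ^ 2 with hN
  have hW0 : 0 < (1 - θ) ^ 3 * (Real.exp (-(2 * t))) ^ (2 * K) :=
    mul_pos hθ3 (pow_pos (Real.exp_pos _) _)
  have hWW : (1 - θ) ^ 3 * (Real.exp (-(2 * t))) ^ (2 * K) ≤
      (1 - θ) ^ 3 * (1 - t) ^ (2 * K) :=
    mul_le_mul_of_nonneg_left
      (pow_le_pow_left₀ (Real.exp_pos _).le (exp_le_one_sub ht0 ht) _) hθ3.le
  have hP0 : 0 < p ^ N := pow_pos hp0 _
  have hPP := prod_tips (b := b) (R := A * r) (r := r) (n := 3 * n0) hp0 hp1 hp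
  have hP : 0 < (1 - θ) ^ 3 * (Real.exp (-(2 * t))) ^ (2 * K) * p ^ N := mul_pos hW0 hP0
  have hmain' : Z b (SB (A * r) r) *
      Zρ b (SB (A * r) r) (rho (helicity b) V q n0 r 1 (c / 4) (2 * s) s) *
      ((1 - θ) ^ 3 * (Real.exp (-(2 * t))) ^ (2 * K) * p ^ N) ≤
      Zs b (SB (A * r) r) 1 0 *
        Zs b (SB (A * r) r) 1 (rho (helicity b) V q n0 r 1 (c / 4) (2 * s) s) := by
    refine le_trans ?_ hmain
    have hz := mul_pos (H910.Z_pos hb.le (SB (A * r) r))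
      (H910.Zρ_pos hb.le (SB (A * r) r) (rho (helicity b) V q n0 r 1 (c / 4) (2 * s) s))
    rw [mul_assoc (Z b (SB (A * r) r) * Zρ b (SB (A * r) r)
      (rho (helicity b) V q n0 r 1 (c / 4) (2 * s) s)) ((1 - θ) ^ 3 * (1 - t) ^ (2 * K))]
    refine mul_le_mul_of_nonneg_left ?_ hz.le
    exact mul_le_mul hWW hPP hP0.le (hW0.le.trans hWW)
  have h0 : 0 ≤ ε / 24 * Real.log r + CL := by positivity
  have key := twice (hR := by omega) hr hb hP hmain' (k := k)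
    (A := 2 * Real.log r / helicity b * En V q)
    (X := 2 * Real.log r * (V / (helicity b * (2 * Real.pi - ang q))))
    (κ := 2 * Real.log r / helicity b * (1 / (4 * Real.pi)))
    h0 (fun j hj => lS_ge hb (hL j hj)) (by
      refine (lS_le hb (by omega) hr hU).trans ?_
      linarith)
  have hlogP : Real.log ((1 - θ) ^ 3 * (Real.exp (-(2 * t))) ^ (2 * K) * p ^ N) =
      Real.log ((1 - θ) ^ 3 * p ^ N) - 4 * t * K := by
    have e : (1 - θ) ^ 3 * (Real.exp (-(2 * t))) ^ (2 * K) * p ^ N =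
        ((1 - θ) ^ 3 * p ^ N) * Real.exp (((2 * K : ℕ) : ℝ) * (-(2 * t))) := by
      rw [Real.exp_nat_mul]
      ring
    rw [e, Real.log_mul (mul_pos hθ3 hP0).ne' (Real.exp_pos _).ne', Real.log_exp]
    push_cast
    ring
  rw [hlogP] at key
  set D := 3 * CL - Real.log ((1 - θ) ^ 3 * p ^ N) with hD
  have hlp : Real.log ((1 - θ) ^ 3 * p ^ N) ≤ 0 := by
    apply Real.log_nonpos (mul_pos hθ3 hP0).le
    exact mul_le_one₀ (pow_le_one₀ (by linarith) (by linarith)) hP0.le (pow_le_one₀ hp0.le hp1)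
  have hD0 : 0 ≤ D := by
    rw [hD]
    linarith
  have hX : V / (helicity b * (2 * Real.pi - ang q)) * Real.log r ≤ (κ + ε / 4) * Real.log r :=
    mul_le_mul_of_nonneg_right hqX hlog
  have hKt : 4 * t * (K : ℝ) ≤ ε / 8 * Real.log r := by
    calc 4 * t * (K : ℝ) ≤ 4 * t * (3 * q * Real.log r) :=
          mul_le_mul_of_nonneg_left hcount (by positivity)
      _ = 12 * (t * q) * Real.log r := by ring
      _ ≤ 12 * (ε / 96) * Real.log r := mul_le_mul_of_nonneg_right (by linarith) hlog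
      _ = ε / 8 * Real.log r := by ring
  have hκp : 0 ≤ (1 / 2 : ℝ) ^ k * (2 * Real.log r / helicity b * (1 / (4 * Real.pi))) := by
    positivity
  have hy0 : (0 : ℝ) ≤ (1 / 2) ^ k := by positivity
  have hy1 : ((1 : ℝ) / 2) ^ k ≤ 1 := pow_le_one₀ (by norm_num) (by norm_num)
  have h5 : -(D + (κ + ε) * Real.log r) ≤ lS b (SB (A * r) r) 1 0 :=
    num_end hlog hε hκ hD hD0 hX hKt hκp hy0 hy1 hk key
  have hz := H910.Z_pos hb.le (SB (A * r) r)
  have h6 : Real.exp (-(D + (κ + ε) * Real.log r)) * Z b (SB (A * r) r) ≤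
      corrInf b ((r : ℤ), 0) * Z b (SB (A * r) r) := by
    refine le_trans ?_ (hTop b (A * r) r hb (by omega) hr)
    have hzs := Zs_pos (R := A * r) (r := r) (by omega) hr hb 1 0
    rw [← le_div_iff₀ hz, ← Real.le_log_iff_exp_le (div_pos hzs hz)]
    exact h5
  have h7 := le_of_mul_le_mul_right h6 hz
  refine le_trans (le_of_eq ?_) h7
  rw [Real.rpow_def_of_pos hrR, ← Real.exp_add]
  congr 1
  ring

/-- **The lower bound on the axis with the exponent `1 / √(8 π Υ(b))`**, from the rows of the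
direct route. -/
theorem axisR1 (hTop : StmtTop) (hMain : StmtMain) (hCover : StmtCover) (hSep : StmtSep)
    (hSepM : StmtSepM) (hTip : StmtTip) (hPos : StmtPos) (hUp : StmtUp) (hLow : StmtLow)
    (hArm : StmtArm) (hMid : StmtMid) {b : ℝ} (hb : bCrit ≤ b) :
    F.AxisB b (1 / Real.sqrt (8 * Real.pi * helicity b)) := by
  intro ε hε
  have hb0 : 0 < b := H170.bCrit_pos.trans_le hb
  have hpi := Real.pi_pos
  have hY2 := helicity_ge hb
  have hY : 0 < helicity b := lt_of_lt_of_le (by positivity) hY2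
  set κ := 1 / Real.sqrt (8 * Real.pi * helicity b) with hκd
  have hκ : 0 ≤ κ := by positivity
  obtain ⟨V, hV, hp, hq1⟩ := choice2 hY hε
  obtain ⟨C, q0, hArm1⟩ := hArm b V hb hV
  obtain ⟨q, hqX, ⟨hq2, hq3⟩, hq4⟩ := (hq1.and ((choiceC (max C 0) hp
    (by positivity : (0 : ℝ) < ε / 96)).and (eventually_ge_atTop (max q0 1)))).exists
  have hq0 : q0 ≤ q := (le_max_left _ _).trans hq4
  have hq : 1 ≤ q := (le_max_right _ _).trans hq4
  have hqR : (0 : ℝ) < q := by exact_mod_cast hq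
  have hqR1 : (1 : ℝ) ≤ q := by exact_mod_cast hq
  clear hq1 hq4
  -- the number of doublings
  obtain ⟨k, hk⟩ : ∃ k : ℕ, (1 / 2 : ℝ) ^ k * (κ + ε) ≤ ε / 2 := by
    obtain ⟨k, hk⟩ := exists_pow_lt_of_lt_one (show 0 < ε / 2 / (κ + ε) by positivity)
      (show (1 / 2 : ℝ) < 1 by norm_num)
    exact ⟨k, by rw [lt_div_iff₀ (by positivity)] at hk; exact hk.le⟩
  obtain ⟨n1, A1, c, hc, hc12, hArm2⟩ := hArm1 q hq0
  have hqp : 0 < (q : ℝ) ^ (-(2 * V ^ 2 / (Real.pi * helicity b))) := Real.rpow_pos_of_pos hqR _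
  have ht0 : 0 ≤ max C 0 * (q : ℝ) ^ (-(2 * V ^ 2 / (Real.pi * helicity b))) :=
    mul_nonneg (le_max_right _ _) hqp.le
  -- the bumps
  obtain ⟨s, hs0, hqs⟩ : ∃ s : ℝ, 0 < s ∧ q * s = c / 32 :=
    ⟨c / (32 * q), by positivity, by field_simp⟩
  have hsc : s ≤ c / 32 := by
    rw [← hqs]
    exact le_mul_of_one_le_left hs0.le hqR1
  have e1 : s < 2 * s := by linarith
  have e2 : s + c / 4 < 1 / 4 := by linarith
  have e3 : (q : ℝ) * (2 * s + s) < c / 4 - s := by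
    calc (q : ℝ) * (2 * s + s) = 3 * (q * s) := by ring
      _ < c / 4 - s := by
        rw [hqs]
        linarith
  have e4 : s < c / 4 := by linarith
  have e5 : c / 4 + s < c / 2 := by linarith
  have hε24 : 0 < ε / 24 := by positivity
  obtain ⟨nU, hU1⟩ := hUp b ((2 : ℝ) ^ k * V) q ((2 : ℝ) ^ k * 1) (c / 4) (2 * s) s (ε / 24) hb
    (by positivity) hq hε24 (by positivity) hs0 e1 e2 e3
  obtain ⟨nL, hL1⟩ := unif_low hLow (x := c / 4) (y := 2 * s) (s := s) hb hV hq hε24 hs0 e1 e2 e3 k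
  obtain ⟨θ, nM, A2, hθ, hM1⟩ := hMid b 1 (c / 4) (2 * s) s (c / 2) hb one_pos hs0 e1 e4 e5
  obtain ⟨p, hp0, hp1⟩ := hTip b hb0
  -- the radius of the tips
  obtain ⟨n0, g1, g2, g3, g4⟩ : ∃ n0 : ℕ, n1 ≤ n0 ∧ nU ≤ n0 ∧ nL ≤ n0 ∧ q + 1 ≤ n0 :=
    ⟨n1 + nU + nL + (q + 1), by omega, by omega, by omega, by omega⟩
  obtain ⟨CU, hU⟩ := hU1 n0 g2
  obtain ⟨CL, hCL, hL⟩ := hL1 n0 g3
  clear hU1 hL1 hUp hLow
  obtain ⟨A, hA1, hA2, hA3⟩ : ∃ A : ℕ, A1 ≤ A ∧ A2 ≤ A ∧ 1 ≤ A :=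
    ⟨A1 + A2 + 1, by omega, by omega, by omega⟩
  obtain ⟨r1, hr1⟩ := exists_nat_gt (((3 * n0 : ℕ) : ℝ) / c)
  obtain ⟨r2, hr2⟩ := exists_nat_gt (1 / s)
  have hp'0 : 0 < min p 1 := lt_min hp0 one_pos
  have hθ1 : max θ 0 < 1 := max_lt hθ one_pos
  refine ⟨Real.exp (-(3 * max CU CL - Real.log ((1 - max θ 0) ^ 3 *
    (min p 1) ^ (2 * (2 * (3 * n0)) ^ 2)))), Real.exp_pos _,
    nU + nL + nM + 2 * (3 * n0) + r1 + r2, fun r hr => ?_⟩
  have hr0 : 1 ≤ r := by omega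
  refine at_r2 (k := k) (CU := CU) (CL := max CU CL) hTop hMain hCover hSep hSepM hPos hb0 hε hY
    hV hq hκ hqX hk hc hc12 ht0
    hq2 hq3 hs0 hsc
    hqs hθ1 hp'0 (min_le_right _ _) (fun U f hf => (min_le_left _ _).trans (hp1 U f hf))
    (by omega) hA3 hr0 (by omega) ?_ ?_ (hCL.trans (le_max_right _ _)) (le_max_left _ _)
    (le_max_right _ _) ?_ ?_ ?_ ?_
  · have h2 : r1 ≤ r := by omega
    have h1 : ((3 * n0 : ℕ) : ℝ) / c < r := hr1.trans_le (by exact_mod_cast h2)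
    rw [div_lt_iff₀ hc] at h1
    linarith
  · have h2 : r2 ≤ r := by omega
    have h1 : 1 / s < r := hr2.trans_le (by exact_mod_cast h2)
    rw [div_lt_iff₀ hs0] at h1
    linarith
  · have h1 := hU A r hA3 (by omega)
    rw [rho_smul, En_mul] at h1
    refine h1.trans (le_of_eq ?_)
    congr 2
    have e : ((2 : ℝ) ^ k) ^ 2 = 4 ^ k := by
      rw [← pow_mul, mul_comm, pow_mul]
      norm_num
    rw [e]
    have e9 : V / (helicity b * (2 * Real.pi - ang q)) =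
        V / (2 * Real.pi - ang q) / helicity b := by
      rw [div_div, mul_comm (helicity b)]
    rw [e9]
    ring
  · intro j hj
    refine le_trans ?_ (hL j hj A r hA3 (by omega))
    refine mul_le_mul_of_nonneg_right ?_ (H910.Z_pos hb0.le _).le
    apply Real.exp_le_exp.2
    have := le_max_right CU CL
    linarith
  · intro a ha1 ha2
    obtain ⟨ρA, ρB, h2, h3, h4, h5⟩ := hArm2 n0 g1 A r a hA1 ha1 ha2
    refine ⟨ρA, ρB, h2, h3, h4, fun Q hQ => (h5 Q hQ).trans ?_⟩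
    refine mul_le_mul_of_nonneg_right ?_ (H910.Zρ_pos hb0.le _ _).le
    exact mul_le_mul_of_nonneg_right (le_max_left _ _) hqp.le
  · intro Q hQ
    refine (hM1 A r hA2 (by omega) Q hQ).trans ?_
    exact mul_le_mul_of_nonneg_right (le_max_left _ _) (H910.Zρ_pos hb0.le _ _).le

end Vale.Agent.P159.T1.D.H598
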